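import Crest.Agent.H7.WS.Ops
import Crest.Agent.H5.HS.Trans

/-! The statement of S0150 from numerical hypotheses on the weights. -/

set_option autoImplicit false

open Filter Topology MeasureTheory TopologicalSpace
open Crest.AnalysisR.TwoAdic Crest.Agent.H5.HS
attribute [local instance] Crest.AnalysisR.TwoAdic.borelTwoAdic
  Crest.AnalysisR.TwoAdic.borelSpace_twoAdic

namespace Crest.Agent.H7.WS

/-- the forward shift with weights `w` is unicellular -/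
def Uni (w : ℤ → ℝ) : Prop := ∀ T : seqHilbert →L[ℂ] seqHilbert, IsWS T w 1 →
  ∀ W : Submodule ℂ seqHilbert, IsClosed (W : Set seqHilbert) → (∀ v ∈ W, T v ∈ W) →
    (W = ⊥ ∨ W = ⊤ ∨ ∃ h : ℤ, W = tailSpace h)

/-- the numerical data behind S0150 -/
structure Data (β b : ℤ → ℤ_[2] → ℝ) : Prop where
  mβ : ∀ j, Measurable (β j)
  pos : ∀ j x, 0 < β j x
  win : ∀ (n : ℕ) (j : ℤ) (x : ℤ_[2]), 1 ≤ n →
    ∏ i ∈ Finset.range n, β (j + i) x ≤ Real.exp (-10 * (((n + 1) ^ 2 / 4 : ℕ) : ℝ))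
  att : ∃ j, haarTwoAdic {x | β j x = Real.exp (-10)} ≠ 0
  mb : ∀ j, Measurable (b j)
  b01 : ∀ j x, 0 ≤ b j x ∧ b j x ≤ 1
  bpos : ∀ᵐ x ∂haarTwoAdic, ∀ j, 0 < b j x
  coc : ∀ᵐ x ∂haarTwoAdic, ∀ j, b (j + 1) x * β j x = β (j - 1) (x + 1) * b j x
  uni : ∀ x, Uni fun j => β j x

theorem s0150_of {β b : ℤ → ℤ_[2] → ℝ} (h : Data β b) :
    ∃ (β b : ℤ → ℤ_[2] → ℝ) (Sfib Vfib : ℤ_[2] → (seqHilbert →L[ℂ] seqHilbert))
      (S V : fibreSpace →L[ℂ] fibreSpace),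
      (∀ j, Measurable (β j)) ∧ (∀ j x, 0 < β j x) ∧
      (∀ x j, Sfib x (basisVec j) = (β j x : ℂ) • basisVec (j + 1)) ∧
      (∀ f : fibreSpace, ∀ᵐ x ∂haarTwoAdic, (S f : ℤ_[2] → seqHilbert) x = Sfib x ((f : ℤ_[2] → seqHilbert) x)) ∧
      (∀ x, ∀ W : Submodule ℂ seqHilbert, IsClosed (W : Set seqHilbert) →
        ((∀ v ∈ W, Sfib x v ∈ W) ↔ (W = ⊥ ∨ W = ⊤ ∨ ∃ h : ℤ, W = tailSpace h))) ∧
      S ≠ 0 ∧ ‖S‖ = Real.exp (-10) ∧
      (∀ n : ℕ, 1 ≤ n → ‖S ^ n‖ ≤ Real.exp (-10 * (((n + 1) ^ 2 / 4 : ℕ) : ℝ))) ∧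
      ‖V‖ ≤ 1 ∧ V * S = S * V ∧
      (∀ j, Measurable (b j)) ∧ (∀ j x, 0 ≤ b j x ∧ b j x ≤ 1) ∧
      (∀ x j, Vfib x (basisVec j) = (b j x : ℂ) • basisVec (j - 1)) ∧
      (∀ f : fibreSpace, ∀ᵐ x ∂haarTwoAdic,
        (V f : ℤ_[2] → seqHilbert) (x + 1) = Vfib x ((f : ℤ_[2] → seqHilbert) x)) ∧
      (∃ N : Set ℤ_[2], haarTwoAdic N = 0 ∧ ∀ x, x ∉ N →
        (∀ j, 0 < b j x) ∧
        (∀ h : ℤ, closure (Vfib x '' (tailSpace h : Set seqHilbert)) = (tailSpace (h - 1) : Set seqHilbert)) ∧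
        closure (Set.range (Vfib x)) = Set.univ) ∧
      (∀ W : Submodule ℂ fibreSpace, IsClosed (W : Set fibreSpace) →
        (∀ f ∈ W, S f ∈ W) → (∀ f ∈ W, V f ∈ W) →
        (∀ g : ℤ_[2] → ℂ, Measurable g → (∃ C : ℝ, ∀ x, ‖g x‖ ≤ C) →
          ∀ f ∈ W, ∀ f' : fibreSpace,
            (∀ᵐ x ∂haarTwoAdic, (f' : ℤ_[2] → seqHilbert) x = g x • (f : ℤ_[2] → seqHilbert) x) → f' ∈ W) →
        W = ⊥ ∨ W = ⊤) := by
  have hβ : ∀ x j, |β j x| ≤ Real.exp (-10) := fun x j => by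
    have := h.win 1 j x le_rfl
    rw [abs_of_pos (h.pos j x)]
    simpa using this
  have hb : ∀ x j, |b j x| ≤ 1 := fun x j => by
    rw [abs_of_nonneg (h.b01 j x).1]; exact (h.b01 j x).2
  choose Sf hSf using fun x => exists_ws (fun j => β j x) 1 (hβ x)
  choose Vf hVf using fun x => exists_ws (fun j => b j x) (-1) (hb x)
  have hSn : ∀ x, ‖Sf x‖ ≤ Real.exp (-10) := fun x => (hSf x).norm_le (hβ x)
  obtain ⟨S, hS⟩ := exists_fib (fun f hf => aesm_ws hSf h.mβ hf) hSn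
  obtain ⟨V, hV1, hV⟩ := exists_fib_succ (fun f hf => aesm_ws hVf h.mb hf) zero_le_one
    fun x => (hVf x).norm_le (hb x)
  have hVb : ∀ x j, Vf x (basisVec j) = (b j x : ℂ) • basisVec (j - 1) := fun x j =>
    (hVf x).basis j
  have hnorm : ‖S‖ = Real.exp (-10) := by
    apply le_antisymm (norm_le_of_fib hS (Real.exp_pos _).le hSn)
    obtain ⟨j, hj⟩ := h.att
    refine le_norm_of_fib hS (h.mβ j (measurableSet_singleton _)) hj (v := basisVec j) ?_ ?_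
    · intro e
      have := norm_basisVec j
      rw [e, norm_zero] at this
      exact zero_ne_one this
    · intro x hx
      have hx' : β j x = Real.exp (-10) := hx
      rw [(hSf x).basis, norm_smul, norm_basisVec, norm_basisVec, hx', Complex.norm_real,
        Real.norm_of_nonneg (Real.exp_pos _).le]
  refine ⟨β, b, Sf, Vf, S, V, h.mβ, h.pos, fun x j => (hSf x).basis j, hS, ?_, ?_, hnorm, ?_, hV1,
    ?_, h.mb, h.b01, hVb, hV, ?_, ?_⟩
  · intro x W hW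
    refine ⟨h.uni x _ (hSf x) W hW, ?_⟩
    rintro (rfl | rfl | ⟨k, rfl⟩) v hv
    · rw [(Submodule.mem_bot ℂ).1 hv, map_zero]; exact Submodule.zero_mem _
    · trivial
    · exact mem_tailSpace.2 fun i hi => mem_tailSpace.1 ((hSf x).map_tail hv) i (by omega)
  · intro e
    rw [e, norm_zero] at hnorm
    exact (Real.exp_pos _).ne hnorm
  · intro n hn
    refine norm_le_of_fib (fib_pow hS n) (Real.exp_pos _).le fun x =>
      ((hSf x).pow n).norm_le fun j => ?_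
    simp only [mul_one]
    rw [abs_of_pos (Finset.prod_pos fun i _ => h.pos _ _)]
    exact h.win n j x hn
  · refine fib_comm hS hV ?_
    filter_upwards [h.coc] with x hx
    apply ext_basis
    intro j
    have h1 := ((hVf x).mul (hSf x)).basis j
    have h2 := ((hSf (x + 1)).mul (hVf x)).basis j
    rw [h1, h2, hx j]
    simp [sub_eq_add_neg]
  · refine ⟨{x | ¬ ∀ j, 0 < b j x}, h.bpos, fun x hx => ?_⟩
    have hx' : ∀ j, 0 < b j x := not_not.1 hx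
    exact ⟨hx', fun k => (hVf x).closure_tail (fun j => (hx' j).ne') k,
      (hVf x).closure_range fun j => (hx' j).ne'⟩
  · intro W hW h1 h2 h3
    exact trans_of b Sf Vf S V hS (fun x => h.uni x _ (hSf x)) hVb hV h.bpos W hW h1 h2 h3

end Crest.Agent.H7.WS
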