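import Crest.Agent.H5.HS.Red

/-! Weighted shifts on `ℓ²(ℤ)` and fibred operators on `L²(ℤ₂; ℓ²(ℤ))` (for S0150). -/

set_option autoImplicit false

open Filter Topology MeasureTheory TopologicalSpace
open Crest.AnalysisR.TwoAdic Crest.Agent.H5.HS
attribute [local instance] Crest.AnalysisR.TwoAdic.borelTwoAdic
  Crest.AnalysisR.TwoAdic.borelSpace_twoAdic

namespace Crest.Agent.H7.WS

/-- `T` is the weighted shift `δ_j ↦ w j • δ_(j+d)` -/
def IsWS (T : seqHilbert →L[ℂ] seqHilbert) (w : ℤ → ℝ) (d : ℤ) : Prop :=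
  ∀ (v : seqHilbert) (i : ℤ), T v i = (w (i - d) : ℂ) * v (i - d)

theorem basisVec_apply (j i : ℤ) : basisVec j i = if i = j then 1 else 0 := by
  simp [basisVec, lp.single_apply, Pi.single_apply]

theorem norm_basisVec (j : ℤ) : ‖basisVec j‖ = 1 := by
  simp [basisVec, lp.norm_single]

theorem hasSum_basis (v : seqHilbert) : HasSum (fun j => v j • basisVec j) v := by
  have := lp.hasSum_single (p := 2) (by simp) v
  convert this using 2 with j
  rw [basisVec, ← lp.single_smul]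
  simp

theorem hasSum_normsq (v : seqHilbert) : HasSum (fun j => ‖v j‖ ^ 2) (‖v‖ ^ 2) := by
  have := lp.hasSum_norm (p := 2) (by simp) v
  simpa using this

theorem memℓp_of {u : ℤ → ℂ} (h : Summable fun j => ‖u j‖ ^ 2) : Memℓp u 2 := by
  apply memℓp_gen
  simpa using h

/-- the coordinate functionals -/
noncomputable def coord (i : ℤ) : seqHilbert →L[ℂ] ℂ := innerSL ℂ (basisVec i)

theorem coord_apply (i : ℤ) (v : seqHilbert) : coord i v = v i := by
  simp [coord, basisVec, lp.inner_single_left]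

theorem continuous_coord (i : ℤ) : Continuous fun v : seqHilbert => v i := by
  have := (coord i).continuous
  simpa only [funext (coord_apply i)] using this

theorem IsWS.norm_apply_le {T : seqHilbert →L[ℂ] seqHilbert} {w : ℤ → ℝ} {d : ℤ} (h : IsWS T w d)
    {C : ℝ} (hC : ∀ j, |w j| ≤ C) (v : seqHilbert) : ‖T v‖ ≤ C * ‖v‖ := by
  have hC0 : 0 ≤ C := (abs_nonneg _).trans (hC 0)
  have h1 := hasSum_normsq (T v)
  have h2 := ((Equiv.subRight d).hasSum_iff.2 (hasSum_normsq v)).mul_left (C ^ 2)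
  have h3 : ‖T v‖ ^ 2 ≤ C ^ 2 * ‖v‖ ^ 2 := by
    refine hasSum_le (fun i => ?_) h1 h2
    rw [h v i, norm_mul, mul_pow, Complex.norm_real, Real.norm_eq_abs]
    simp only [Function.comp, Equiv.subRight_apply]
    gcongr
    exact hC _
  rw [← mul_pow] at h3
  exact (pow_le_pow_iff_left₀ (norm_nonneg _) (by positivity) (by norm_num)).1 h3

theorem IsWS.norm_le {T : seqHilbert →L[ℂ] seqHilbert} {w : ℤ → ℝ} {d : ℤ} (h : IsWS T w d)
    {C : ℝ} (hC : ∀ j, |w j| ≤ C) : ‖T‖ ≤ C :=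
  T.opNorm_le_bound ((abs_nonneg _).trans (hC 0)) (h.norm_apply_le hC)

theorem exists_ws (w : ℤ → ℝ) (d : ℤ) {C : ℝ} (hC : ∀ j, |w j| ≤ C) :
    ∃ T : seqHilbert →L[ℂ] seqHilbert, IsWS T w d := by
  have hC0 : 0 ≤ C := (abs_nonneg _).trans (hC 0)
  have hs : ∀ v : seqHilbert, HasSum (fun i => C ^ 2 * ‖v (i - d)‖ ^ 2) (C ^ 2 * ‖v‖ ^ 2) :=
    fun v => ((Equiv.subRight d).hasSum_iff.2 (hasSum_normsq v)).mul_left (C ^ 2)
  have hle : ∀ (v : seqHilbert) (i : ℤ), ‖(w (i - d) : ℂ) * v (i - d)‖ ^ 2 ≤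
      C ^ 2 * ‖v (i - d)‖ ^ 2 := fun v i => by
    rw [norm_mul, mul_pow, Complex.norm_real, Real.norm_eq_abs]
    gcongr
    exact hC _
  have hm : ∀ v : seqHilbert, Memℓp (fun i => (w (i - d) : ℂ) * v (i - d)) 2 := fun v =>
    memℓp_of (Summable.of_nonneg_of_le (fun _ => by positivity) (hle v) (hs v).summable)
  let L : seqHilbert →ₗ[ℂ] seqHilbert :=
    { toFun := fun v => ⟨_, hm v⟩
      map_add' := fun u v => by
        apply lp.ext
        funext i
        simp [mul_add]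
      map_smul' := fun c v => by
        apply lp.ext
        funext i
        simp [mul_left_comm] }
  refine ⟨L.mkContinuous C fun v => ?_, fun v i => rfl⟩
  have h3 : ‖L v‖ ^ 2 ≤ C ^ 2 * ‖v‖ ^ 2 := hasSum_le (hle v) (hasSum_normsq (L v)) (hs v)
  rw [← mul_pow] at h3
  exact (pow_le_pow_iff_left₀ (norm_nonneg _) (by positivity) (by norm_num)).1 h3

theorem IsWS.basis {T : seqHilbert →L[ℂ] seqHilbert} {w : ℤ → ℝ} {d : ℤ} (h : IsWS T w d)
    (j : ℤ) : T (basisVec j) = (w j : ℂ) • basisVec (j + d) := by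
  apply lp.ext
  funext i
  rw [h, lp.coeFn_smul, Pi.smul_apply, basisVec_apply, basisVec_apply]
  by_cases hi : i = j + d
  · subst hi; simp
  · have : i - d ≠ j := fun e => hi (by omega)
    simp [hi, this]

theorem ext_basis {T T' : seqHilbert →L[ℂ] seqHilbert} (h : ∀ j, T (basisVec j) = T' (basisVec j)) :
    T = T' := by
  ext1 v
  have h1 := (hasSum_basis v).mapL T
  have h2 := (hasSum_basis v).mapL T'
  simp only [map_smul, h] at h1 h2
  exact h1.unique h2

theorem isWS_of_basis {T : seqHilbert →L[ℂ] seqHilbert} {w : ℤ → ℝ} {d : ℤ}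
    (h : ∀ j, T (basisVec j) = (w j : ℂ) • basisVec (j + d)) : IsWS T w d := by
  have hC : ∀ j, |w j| ≤ ‖T‖ := fun j => by
    have := T.le_opNorm (basisVec j)
    rw [h, norm_smul, norm_basisVec, norm_basisVec, Complex.norm_real, Real.norm_eq_abs] at this
    simpa using this
  obtain ⟨T', hT'⟩ := exists_ws w d hC
  rwa [ext_basis (T := T) (T' := T') fun j => by rw [h, hT'.basis]]

theorem IsWS.mul {T T' : seqHilbert →L[ℂ] seqHilbert} {w w' : ℤ → ℝ} {d d' : ℤ} (h : IsWS T w d)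
    (h' : IsWS T' w' d') : IsWS (T * T') (fun j => w (j + d') * w' j) (d + d') := by
  intro v i
  rw [ContinuousLinearMap.mul_apply, h, h']
  have e : i - d - d' = i - (d + d') := by ring
  have e' : i - (d + d') + d' = i - d := by ring
  simp only [e, e']
  push_cast
  ring

theorem IsWS.pow {T : seqHilbert →L[ℂ] seqHilbert} {w : ℤ → ℝ} {d : ℤ} (h : IsWS T w d) (n : ℕ) :
    IsWS (T ^ n) (fun j => ∏ i ∈ Finset.range n, w (j + i * d)) (n * d) := by
  induction n with
  | zero => intro v i; simp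
  | succ n ih =>
    have := h.mul ih
    rw [pow_succ']
    convert this using 1
    · funext j
      rw [Finset.prod_range_succ, mul_comm]
    · push_cast; ring

theorem mem_tailSpace {h : ℤ} {v : seqHilbert} : v ∈ tailSpace h ↔ ∀ i, i < h → v i = 0 := by
  constructor
  · intro hv i hi
    have : (tailSpace h : Set seqHilbert) ⊆ (LinearMap.ker (coord i).toLinearMap : Submodule ℂ _) := by
      rw [tailSpace, Submodule.topologicalClosure_coe]
      apply closure_minimal _ (coord i).isClosed_ker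
      apply Submodule.span_le.2
      rintro _ ⟨⟨j, hj⟩, rfl⟩
      have : i ≠ j := by omega
      simp [coord_apply, basisVec_apply, this]
    simpa [coord_apply] using this hv
  · intro hv
    refine (Submodule.isClosed_topologicalClosure _).mem_of_tendsto (hasSum_basis v)
      (Eventually.of_forall fun s => Submodule.sum_mem _ fun j _ => ?_)
    by_cases hj : j < h
    · simp [hv j hj]
    · exact Submodule.smul_mem _ _ (Submodule.le_topologicalClosure _
        (Submodule.subset_span ⟨⟨j, not_lt.1 hj⟩, rfl⟩))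

theorem isClosed_tailSpace (h : ℤ) : IsClosed (tailSpace h : Set seqHilbert) :=
  Submodule.isClosed_topologicalClosure _

theorem basisVec_mem_tail {h j : ℤ} (hj : h ≤ j) : basisVec j ∈ tailSpace h :=
  mem_tailSpace.2 fun i hi => by
    have : i ≠ j := by omega
    simp [basisVec_apply, this]

/-- a closed subspace containing the `δ_j` in the support of `v` contains `v` -/
theorem mem_of_basis {W : Submodule ℂ seqHilbert} (hW : IsClosed (W : Set seqHilbert))
    {v : seqHilbert} (h : ∀ j, v j ≠ 0 → basisVec j ∈ W) : v ∈ W := by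
  refine hW.mem_of_tendsto (hasSum_basis v)
    (Eventually.of_forall fun s => Submodule.sum_mem _ fun j _ => ?_)
  by_cases hj : v j = 0
  · simp [hj]
  · exact Submodule.smul_mem _ _ (h j hj)

theorem IsWS.map_tail {T : seqHilbert →L[ℂ] seqHilbert} {w : ℤ → ℝ} {d : ℤ} (h : IsWS T w d)
    {k : ℤ} {v : seqHilbert} (hv : v ∈ tailSpace k) : T v ∈ tailSpace (k + d) :=
  mem_tailSpace.2 fun i hi => by rw [h, mem_tailSpace.1 hv _ (by omega), mul_zero]

theorem IsWS.closure_tail {T : seqHilbert →L[ℂ] seqHilbert} {w : ℤ → ℝ} {d : ℤ} (h : IsWS T w d)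
    (hw : ∀ j, w j ≠ 0) (k : ℤ) :
    closure (T '' (tailSpace k : Set seqHilbert)) = (tailSpace (k + d) : Set seqHilbert) := by
  apply Set.Subset.antisymm
  · apply closure_minimal _ (isClosed_tailSpace _)
    rintro _ ⟨v, hv, rfl⟩
    exact h.map_tail hv
  · intro v hv
    have e : closure (T '' (tailSpace k : Set seqHilbert)) =
        (((tailSpace k).map T.toLinearMap).topologicalClosure : Set seqHilbert) := by
      rw [Submodule.topologicalClosure_coe, Submodule.map_coe]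
      rfl
    rw [e]
    refine mem_of_basis (Submodule.isClosed_topologicalClosure _) fun j hj => ?_
    have hjk : k ≤ j - d := by
      by_contra hc
      exact hj (mem_tailSpace.1 hv j (by omega))
    refine Submodule.le_topologicalClosure _ ⟨(w (j - d) : ℂ)⁻¹ • basisVec (j - d),
      Submodule.smul_mem _ _ (basisVec_mem_tail hjk), ?_⟩
    have : (w (j - d) : ℂ) ≠ 0 := by exact_mod_cast hw _
    change T _ = _
    rw [map_smul, h.basis, smul_smul, inv_mul_cancel₀ this, one_smul, sub_add_cancel]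

theorem IsWS.closure_range {T : seqHilbert →L[ℂ] seqHilbert} {w : ℤ → ℝ} {d : ℤ} (h : IsWS T w d)
    (hw : ∀ j, w j ≠ 0) : closure (Set.range T) = Set.univ := by
  apply Set.eq_univ_of_forall
  intro v
  have e : closure (Set.range T) =
      ((LinearMap.range T.toLinearMap).topologicalClosure : Set seqHilbert) := by
    rw [Submodule.topologicalClosure_coe, LinearMap.coe_range]
    rfl
  rw [e]
  refine mem_of_basis (Submodule.isClosed_topologicalClosure _) fun j _ => ?_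
  refine Submodule.le_topologicalClosure _ ⟨(w (j - d) : ℂ)⁻¹ • basisVec (j - d), ?_⟩
  have : (w (j - d) : ℂ) ≠ 0 := by exact_mod_cast hw _
  change T _ = _
  rw [map_smul, h.basis, smul_smul, inv_mul_cancel₀ this, one_smul, sub_add_cancel]

/-! ### fibred operators -/

theorem aesm_ws {T : ℤ_[2] → (seqHilbert →L[ℂ] seqHilbert)} {w : ℤ → ℤ_[2] → ℝ} {d : ℤ}
    (h : ∀ x, IsWS (T x) (fun j => w j x) d) (hw : ∀ j, Measurable (w j))
    {f : ℤ_[2] → seqHilbert} (hf : AEStronglyMeasurable f haarTwoAdic) :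
    AEStronglyMeasurable (fun x => T x (f x)) haarTwoAdic := by
  refine aestronglyMeasurable_of_tendsto_ae (atTop : Filter (Finset ℤ))
    (f := fun s x => ∑ i ∈ s, (T x (f x)) i • basisVec i) (fun s => ?_)
    (Eventually.of_forall fun x => hasSum_basis _)
  refine Finset.aestronglyMeasurable_fun_sum _ fun i _ => AEStronglyMeasurable.smul_const ?_ _
  simp only [h _ _ i]
  exact (Complex.measurable_ofReal.comp (hw _)).aestronglyMeasurable.mul
    ((continuous_coord _).comp_aestronglyMeasurable hf)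

theorem norm_le_of_fib {T : ℤ_[2] → (seqHilbert →L[ℂ] seqHilbert)} {S : fibreSpace →L[ℂ] fibreSpace}
    (hS : ∀ f : fibreSpace, ∀ᵐ x ∂haarTwoAdic,
      (S f : ℤ_[2] → seqHilbert) x = T x ((f : ℤ_[2] → seqHilbert) x))
    {C : ℝ} (hC0 : 0 ≤ C) (hC : ∀ x, ‖T x‖ ≤ C) : ‖S‖ ≤ C := by
  refine S.opNorm_le_bound hC0 fun f => Lp.norm_le_mul_norm_of_ae_le_mul ?_
  filter_upwards [hS f] with x hx
  rw [hx]
  exact (T x).le_of_opNorm_le (hC x) _

theorem exists_fib {T : ℤ_[2] → (seqHilbert →L[ℂ] seqHilbert)}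
    (hm : ∀ f : ℤ_[2] → seqHilbert, AEStronglyMeasurable f haarTwoAdic →
      AEStronglyMeasurable (fun x => T x (f x)) haarTwoAdic)
    {C : ℝ} (hC : ∀ x, ‖T x‖ ≤ C) :
    ∃ S : fibreSpace →L[ℂ] fibreSpace, ∀ f : fibreSpace, ∀ᵐ x ∂haarTwoAdic,
      (S f : ℤ_[2] → seqHilbert) x = T x ((f : ℤ_[2] → seqHilbert) x) := by
  have hb : ∀ (f : fibreSpace) x, ‖T x (f x)‖ ≤ C * ‖f x‖ := fun f x =>
    (T x).le_of_opNorm_le (hC x) _
  have hp : ∀ f : fibreSpace, MemLp (fun x => T x (f x)) 2 haarTwoAdic := fun f =>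
    MemLp.of_le_mul (Lp.memLp f) (hm _ (Lp.aestronglyMeasurable f)) (Eventually.of_forall (hb f))
  let L : fibreSpace →ₗ[ℂ] fibreSpace :=
    { toFun := fun f => (hp f).toLp
      map_add' := fun f g => Lp.ext (by
        filter_upwards [(hp (f + g)).coeFn_toLp, (hp f).coeFn_toLp, (hp g).coeFn_toLp,
          Lp.coeFn_add f g, Lp.coeFn_add (hp f).toLp (hp g).toLp] with x h1 h2 h3 h4 h5
        rw [h1, h5, h4, Pi.add_apply, Pi.add_apply, h2, h3, map_add])
      map_smul' := fun c f => Lp.ext (by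
        filter_upwards [(hp (c • f)).coeFn_toLp, (hp f).coeFn_toLp,
          Lp.coeFn_smul c f, Lp.coeFn_smul c (hp f).toLp] with x h1 h2 h4 h5
        rw [h1, RingHom.id_apply, h5, h4, Pi.smul_apply, Pi.smul_apply, h2, map_smul]) }
  refine ⟨L.mkContinuous C fun f => Lp.norm_le_mul_norm_of_ae_le_mul ?_, fun f => (hp f).coeFn_toLp⟩
  filter_upwards [(hp f).coeFn_toLp] with x hx
  change ‖((hp f).toLp : ℤ_[2] → seqHilbert) x‖ ≤ _
  rw [hx]
  exact hb f x

instance haar_isAddHaar : haarTwoAdic.IsAddHaarMeasure := by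
  unfold haarTwoAdic
  infer_instance

theorem mp_add (a : ℤ_[2]) : MeasurePreserving (fun x => x + a) haarTwoAdic haarTwoAdic :=
  measurePreserving_add_right _ a

theorem ae_add {p : ℤ_[2] → Prop} (h : ∀ᵐ x ∂haarTwoAdic, p x) (a : ℤ_[2]) :
    ∀ᵐ x ∂haarTwoAdic, p (x + a) :=
  (mp_add a).quasiMeasurePreserving.ae h

theorem exists_fib_succ {T : ℤ_[2] → (seqHilbert →L[ℂ] seqHilbert)}
    (hm : ∀ f : ℤ_[2] → seqHilbert, AEStronglyMeasurable f haarTwoAdic →
      AEStronglyMeasurable (fun x => T x (f x)) haarTwoAdic)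
    {C : ℝ} (hC0 : 0 ≤ C) (hC : ∀ x, ‖T x‖ ≤ C) :
    ∃ V : fibreSpace →L[ℂ] fibreSpace, ‖V‖ ≤ C ∧ ∀ f : fibreSpace, ∀ᵐ x ∂haarTwoAdic,
      (V f : ℤ_[2] → seqHilbert) (x + 1) = T x ((f : ℤ_[2] → seqHilbert) x) := by
  obtain ⟨S, hS⟩ := exists_fib hm hC
  let τ : fibreSpace →ₗᵢ[ℂ] fibreSpace :=
    Lp.compMeasurePreservingₗᵢ ℂ (fun x => x + (-1)) (mp_add (-1))
  refine ⟨τ.toContinuousLinearMap ∘L S, ?_, fun f => ?_⟩
  · refine ContinuousLinearMap.opNorm_le_bound _ hC0 fun f => ?_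
    change ‖τ (S f)‖ ≤ _
    rw [τ.norm_map]
    exact S.le_of_opNorm_le (norm_le_of_fib hS hC0 hC) f
  · have h1 := Lp.coeFn_compMeasurePreserving (S f) (mp_add (-1))
    filter_upwards [ae_add h1 1, hS f] with x hx h2
    change (Lp.compMeasurePreserving _ (mp_add (-1)) (S f) : ℤ_[2] → seqHilbert) (x + 1) = _
    rw [hx, ← h2]
    simp

theorem fib_pow {T : ℤ_[2] → (seqHilbert →L[ℂ] seqHilbert)} {S : fibreSpace →L[ℂ] fibreSpace}
    (hS : ∀ f : fibreSpace, ∀ᵐ x ∂haarTwoAdic,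
      (S f : ℤ_[2] → seqHilbert) x = T x ((f : ℤ_[2] → seqHilbert) x)) (n : ℕ) :
    ∀ f : fibreSpace, ∀ᵐ x ∂haarTwoAdic,
      ((S ^ n) f : ℤ_[2] → seqHilbert) x = (T x ^ n) ((f : ℤ_[2] → seqHilbert) x) := by
  induction n with
  | zero => intro f; simp
  | succ n ih =>
    intro f
    filter_upwards [hS ((S ^ n) f), ih f] with x h1 h2
    rw [pow_succ', pow_succ', ContinuousLinearMap.mul_apply, h1, h2, ContinuousLinearMap.mul_apply]

theorem fib_comm {T R : ℤ_[2] → (seqHilbert →L[ℂ] seqHilbert)} {S V : fibreSpace →L[ℂ] fibreSpace}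
    (hS : ∀ f : fibreSpace, ∀ᵐ x ∂haarTwoAdic,
      (S f : ℤ_[2] → seqHilbert) x = T x ((f : ℤ_[2] → seqHilbert) x))
    (hV : ∀ f : fibreSpace, ∀ᵐ x ∂haarTwoAdic,
      (V f : ℤ_[2] → seqHilbert) (x + 1) = R x ((f : ℤ_[2] → seqHilbert) x))
    (h : ∀ᵐ x ∂haarTwoAdic, R x * T x = T (x + 1) * R x) : V * S = S * V := by
  ext1 f
  refine Lp.ext ?_
  have key : ∀ᵐ x ∂haarTwoAdic, (V (S f) : ℤ_[2] → seqHilbert) (x + 1) =
      (S (V f) : ℤ_[2] → seqHilbert) (x + 1) := by
    filter_upwards [hV (S f), hS f, ae_add (hS (V f)) 1, hV f, h] with x h1 h2 h3 h4 h5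
    rw [h1, h2, h3, h4, ← ContinuousLinearMap.mul_apply, h5, ContinuousLinearMap.mul_apply]
  filter_upwards [ae_add key (-1)] with x hx
  simpa using hx

theorem le_norm_of_fib {T : ℤ_[2] → (seqHilbert →L[ℂ] seqHilbert)} {S : fibreSpace →L[ℂ] fibreSpace}
    (hS : ∀ f : fibreSpace, ∀ᵐ x ∂haarTwoAdic,
      (S f : ℤ_[2] → seqHilbert) x = T x ((f : ℤ_[2] → seqHilbert) x))
    {A : Set ℤ_[2]} (hA : MeasurableSet A) (hA0 : haarTwoAdic A ≠ 0) {v : seqHilbert} (hv : v ≠ 0)
    {c : ℝ} (hc : ∀ x ∈ A, c * ‖v‖ ≤ ‖T x v‖) : c ≤ ‖S‖ := by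
  rcases le_or_gt c 0 with h0 | h0
  · exact h0.trans (norm_nonneg _)
  let f : fibreSpace := indicatorConstLp 2 hA (measure_ne_top _ _) v
  have hf : f ≠ 0 := by
    intro e
    have := norm_indicatorConstLp (p := 2) (hs := hA) (hμs := measure_ne_top haarTwoAdic A) (c := v)
      (by simp) (by simp)
    change ‖f‖ = _ at this
    rw [e, norm_zero] at this
    have h1 : 0 < haarTwoAdic.real A := ENNReal.toReal_pos hA0 (measure_ne_top _ _)
    have h2 : 0 < ‖v‖ := norm_pos_iff.2 hv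
    have : 0 < ‖v‖ * haarTwoAdic.real A ^ (1 / (2 : ENNReal).toReal) := by positivity
    linarith
  have h1 : ‖(c : ℂ) • f‖ ≤ ‖S f‖ := by
    refine Lp.norm_le_norm_of_ae_le ?_
    filter_upwards [hS f, Lp.coeFn_smul (c : ℂ) f,
      indicatorConstLp_coeFn (p := 2) (hs := hA) (hμs := measure_ne_top haarTwoAdic A) (c := v)]
      with x h1 h2 h3
    rw [h1, h2, Pi.smul_apply]
    change f x = _ at h3
    rw [h3]
    by_cases hx : x ∈ A
    · rw [Set.indicator_of_mem hx, norm_smul, Complex.norm_real, Real.norm_of_nonneg h0.le]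
      exact hc x hx
    · simp [Set.indicator_of_notMem hx]
  rw [norm_smul, Complex.norm_real, Real.norm_of_nonneg h0.le] at h1
  exact le_of_mul_le_mul_right (h1.trans (S.le_opNorm f)) (norm_pos_iff.2 hf)

end Crest.Agent.H7.WS
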