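import Crest.Agent.H7.WS.Asm

/-! The weights for S0150. -/

set_option autoImplicit false

open Filter Topology MeasureTheory TopologicalSpace
open Crest.AnalysisR.TwoAdic Crest.Agent.H5.HS
attribute [local instance] Crest.AnalysisR.TwoAdic.borelTwoAdic
  Crest.AnalysisR.TwoAdic.borelSpace_twoAdic

namespace Crest.Agent.H7.WS

/-- `x mod 2^k` -/
noncomputable def r (k : ℕ) (x : ℤ_[2]) : ℕ := (PadicInt.toZModPow k x).val

theorem r_lt (k : ℕ) (x : ℤ_[2]) : r k x < 2 ^ k := ZMod.val_lt _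

theorem cast_r (k : ℕ) (x : ℤ_[2]) : ((r k x : ℕ) : ZMod (2 ^ k)) = PadicInt.toZModPow k x :=
  ZMod.natCast_zmod_val _

theorem r_mod {m n : ℕ} (h : m ≤ n) (x : ℤ_[2]) : r m x = r n x % 2 ^ m := by
  have := PadicInt.cast_toZModPow m n h x
  rw [ZMod.cast_eq_val] at this
  rw [r, ← this, ZMod.val_natCast]
  rfl

theorem r_mono {m n : ℕ} (h : m ≤ n) (x : ℤ_[2]) : r m x ≤ r n x := by
  rw [r_mod h]; exact Nat.mod_le _ _

theorem r_add_one (k : ℕ) (x : ℤ_[2]) : r k (x + 1) = (r k x + 1) % 2 ^ k := by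
  rw [r, map_add, map_one, ← cast_r, ← Nat.cast_succ, ZMod.val_natCast]

theorem exists_k0 {y : ℤ_[2]} (hy : y ≠ -1) : ∃ k₀, ∀ k, k₀ ≤ k → r k (y + 1) = r k y + 1 := by
  have : ∃ k₀, PadicInt.toZModPow k₀ (y + 1) ≠ PadicInt.toZModPow k₀ 0 := by
    by_contra hc
    push Not at hc
    exact hy (eq_neg_of_add_eq_zero_left (PadicInt.ext_of_toZModPow.1 hc))
  obtain ⟨k₀, h⟩ := this
  refine ⟨k₀, fun k hk => ?_⟩
  rw [r_add_one]
  apply Nat.mod_eq_of_lt
  by_contra hc
  have e : r k y + 1 = 2 ^ k := by have := r_lt k y; omega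
  have h1 : r k (y + 1) = 0 := by rw [r_add_one, e, Nat.mod_self]
  have h2 : r k₀ (y + 1) = 0 := by rw [r_mod hk, h1, Nat.zero_mod]
  apply h
  rw [← cast_r, h2]
  simp

theorem r_near (n : ℕ) (x : ℤ_[2]) : ∀ᶠ y in 𝓝 x, ∀ k, k ≤ n → r k y = r k x := by
  have hpos : (0 : ℝ) < ((2 : ℕ) : ℝ) ^ (-(n : ℤ)) := by positivity
  filter_upwards [Metric.closedBall_mem_nhds x hpos] with y hy k hk
  rw [Metric.mem_closedBall, dist_eq_norm, PadicInt.norm_le_pow_iff_mem_span_pow,
    ← PadicInt.ker_toZModPow, RingHom.mem_ker, map_sub, sub_eq_zero] at hy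
  have : r n y = r n x := by rw [r, r, hy]
  rw [r_mod hk, r_mod hk, this]

def KS (n : ℕ) (x : ℤ_[2]) : Set ℕ := {k | 2 ^ (k + 1) ≤ n + r k x}

theorem lt_of_mem_KS {n k : ℕ} {x : ℤ_[2]} (h : k ∈ KS n x) : k < n := by
  have h1 : 2 ^ (k + 1) ≤ n + r k x := h
  have h2 := r_lt k x
  have h3 : k < 2 ^ k := Nat.lt_two_pow_self
  rw [pow_succ] at h1
  omega

theorem bdd_KS (n : ℕ) (x : ℤ_[2]) : BddAbove (KS n x) := ⟨n, fun _ h => (lt_of_mem_KS h).le⟩

theorem sSup_KS_le (n : ℕ) (x : ℤ_[2]) : sSup (KS n x) ≤ n :=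
  csSup_le' fun _ h => (lt_of_mem_KS h).le

noncomputable def A (n : ℕ) (x : ℤ_[2]) : ℕ := n + 1 + r (sSup (KS n x)) x

theorem A_ge (n : ℕ) (x : ℤ_[2]) : n + 1 ≤ A n x := Nat.le_add_right _ _

theorem A_zero (x : ℤ_[2]) : A 0 x = 1 := by
  have h : sSup (KS 0 x) = 0 := Nat.le_zero.1 (sSup_KS_le 0 x)
  have := r_lt 0 x
  rw [A, h]
  omega

theorem A_mono {m n : ℕ} (h : m ≤ n) (x : ℤ_[2]) : A m x ≤ A n x := by
  have h1 : sSup (KS m x) ≤ sSup (KS n x) :=
    csSup_le_csSup' (bdd_KS n x) fun k hk => le_trans hk (Nat.add_le_add_right h _)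
  have := r_mono h1 x
  unfold A
  omega

theorem A_shift {y : ℤ_[2]} (hy : y ≠ -1) : ∃ N, ∀ n, N ≤ n → A n (y + 1) = A (n + 1) y := by
  obtain ⟨k₀, h⟩ := exists_k0 hy
  refine ⟨2 ^ (k₀ + 1), fun n hn => ?_⟩
  have small : ∀ k, k ≤ k₀ → 2 ^ (k + 1) ≤ n := fun k hk =>
    (Nat.pow_le_pow_right (by norm_num) (by omega)).trans hn
  have e : KS n (y + 1) = KS (n + 1) y := by
    ext k
    simp only [KS, Set.mem_setOf_eq]
    rcases le_total k k₀ with hk | hk
    · have := small k hk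
      omega
    · rw [h k hk]
      omega
  have hk : k₀ ≤ sSup (KS (n + 1) y) :=
    le_csSup (bdd_KS _ _) (show 2 ^ (k₀ + 1) ≤ n + 1 + r k₀ y by omega)
  rw [A, A, e, h _ hk]
  omega

theorem A_cont (n : ℕ) : Continuous (A n) := by
  apply IsLocallyConstant.continuous
  rw [IsLocallyConstant.iff_eventually_eq]
  intro x
  filter_upwards [r_near n x] with y hy
  have e : KS n y = KS n x := by
    ext k
    constructor
    · intro hk
      have := hy k (lt_of_mem_KS hk).le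
      simpa only [KS, Set.mem_setOf_eq, this] using hk
    · intro hk
      have := hy k (lt_of_mem_KS hk).le
      simpa only [KS, Set.mem_setOf_eq, this] using hk
  rw [A, A, e, hy _ (sSup_KS_le n x)]

/-- the exponents -/
noncomputable def a (j : ℤ) (x : ℤ_[2]) : ℝ :=
  if 0 ≤ j then 10 * (A j.toNat x : ℝ) else 10 * (A (-j - 1).toNat (-1 - x) : ℝ)

theorem a_meas (j : ℤ) : Measurable (a j) := by
  unfold a
  split_ifs
  · exact (continuous_const.mul (continuous_of_discreteTopology.comp (A_cont _))).measurable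
  · exact (continuous_const.mul (continuous_of_discreteTopology.comp
      ((A_cont _).comp (continuous_const.sub continuous_id)))).measurable

theorem a_ge_pos {j : ℤ} (hj : 0 ≤ j) (x : ℤ_[2]) : 10 * ((j : ℝ) + 1) ≤ a j x := by
  rw [a, if_pos hj]
  have h1 : ((j.toNat + 1 : ℕ) : ℝ) ≤ A j.toNat x := by exact_mod_cast A_ge _ x
  have h2 : ((j.toNat : ℕ) : ℝ) = j := by exact_mod_cast Int.toNat_of_nonneg hj
  push_cast at h1
  linarith

theorem a_ge_neg {j : ℤ} (hj : j < 0) (x : ℤ_[2]) : 10 * (-(j : ℝ)) ≤ a j x := by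
  rw [a, if_neg (not_le.2 hj)]
  have h1 : (((-j - 1).toNat + 1 : ℕ) : ℝ) ≤ A (-j - 1).toNat (-1 - x) := by
    exact_mod_cast A_ge _ _
  have h2 : (((-j - 1).toNat : ℕ) : ℝ) = -j - 1 := by
    exact_mod_cast Int.toNat_of_nonneg (show 0 ≤ -j - 1 by omega)
  push_cast at h1
  linarith

theorem a_h1 (x : ℤ_[2]) (j : ℤ) : 10 * |(j : ℝ)| ≤ a j x := by
  rcases le_or_gt 0 j with hj | hj
  · have := a_ge_pos hj x
    rw [abs_of_nonneg (by exact_mod_cast hj)]
    linarith
  · have := a_ge_neg hj x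
    rwa [abs_of_neg (by exact_mod_cast hj)]

theorem a_h2 (x : ℤ_[2]) (i j : ℤ) (hi : 0 ≤ i) (hij : i ≤ j) : a i x ≤ a j x := by
  rw [a, a, if_pos hi, if_pos (hi.trans hij)]
  have : (A i.toNat x : ℝ) ≤ A j.toNat x := by exact_mod_cast A_mono (by omega) x
  linarith

theorem a_h3 (x : ℤ_[2]) (i j : ℤ) (hji : j ≤ i) (hi : i < 0) : a i x ≤ a j x := by
  rw [a, a, if_neg (by omega), if_neg (by omega)]
  have : (A (-i - 1).toNat (-1 - x) : ℝ) ≤ A (-j - 1).toNat (-1 - x) := by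
    exact_mod_cast A_mono (by omega) _
  linarith

theorem a_zero (x : ℤ_[2]) : a 0 x = 10 := by
  simp [a, A_zero]

/-- the integer lower profile -/
def m (j : ℤ) : ℕ := if 0 ≤ j then j.toNat + 1 else (-j).toNat

theorem m_le (j : ℤ) (x : ℤ_[2]) : 10 * (m j : ℝ) ≤ a j x := by
  unfold m
  split_ifs with hj
  · have h2 : ((j.toNat : ℕ) : ℝ) = j := by exact_mod_cast Int.toNat_of_nonneg hj
    push_cast
    rw [h2]
    exact a_ge_pos hj x
  · have h2 : (((-j).toNat : ℕ) : ℝ) = -j := by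
      exact_mod_cast Int.toNat_of_nonneg (show 0 ≤ -j by omega)
    rw [h2]
    exact a_ge_neg (not_le.1 hj) x

theorem sum_m (n : ℕ) : ∀ j : ℤ, (n + 1) ^ 2 / 4 ≤ ∑ i ∈ Finset.range n, m (j + i) := by
  induction n with
  | zero => intro j; simp
  | succ n ih =>
    intro j
    have key : (n + 1 + 1) ^ 2 / 4 ≤ (n + 1) ^ 2 / 4 + (n / 2 + 1) := by
      rcases Nat.even_or_odd' n with ⟨t, rfl | rfl⟩
      · have e1 : (2 * t + 1 + 1) ^ 2 = 4 * ((t + 1) ^ 2) := by ring
        have e2 : (2 * t + 1) ^ 2 = 4 * (t ^ 2 + t) + 1 := by ring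
        have e3 : (t + 1) ^ 2 = t ^ 2 + 2 * t + 1 := by ring
        rw [e1, e2]
        omega
      · have e1 : (2 * t + 1 + 1 + 1) ^ 2 = 4 * (t ^ 2 + 3 * t + 2) + 1 := by ring
        have e2 : (2 * t + 1 + 1) ^ 2 = 4 * (t ^ 2 + 2 * t + 1) := by ring
        rw [e1, e2]
        omega
    by_cases h : n / 2 + 1 ≤ m (j + n)
    · rw [Finset.sum_range_succ]
      have := ih j
      omega
    · have h' : n / 2 + 1 ≤ m j := by
        unfold m at h ⊢
        split_ifs at h ⊢ <;> omega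
      rw [Finset.sum_range_succ']
      have := ih (j + 1)
      have e : ∑ i ∈ Finset.range n, m (j + ((i + 1 : ℕ) : ℤ)) =
          ∑ i ∈ Finset.range n, m (j + 1 + i) :=
        Finset.sum_congr rfl fun i _ => by congr 1; push_cast; ring
      rw [e]
      simp only [Nat.cast_zero, add_zero]
      omega

noncomputable def D (i : ℤ) (x : ℤ_[2]) : ℝ := a (i - 1) (x + 1) - a i x

theorem D_meas (i : ℤ) : Measurable (D i) :=
  ((a_meas _).comp (measurable_id.add_const 1)).sub (a_meas i)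

theorem D_fin {x : ℤ_[2]} (hx : x ≠ -1) : ∃ N : ℕ, ∀ i : ℤ, (N : ℤ) < |i| → D i x = 0 := by
  obtain ⟨N₁, h₁⟩ := A_shift hx
  have hy : -2 - x ≠ -1 := fun e => hx (by linear_combination -e)
  obtain ⟨N₂, h₂⟩ := A_shift hy
  refine ⟨N₁ + N₂ + 1, fun i hi => ?_⟩
  rcases le_or_gt 0 i with h0 | h0
  · rw [abs_of_nonneg h0] at hi
    rw [D, a, a, if_pos (by omega), if_pos h0, h₁ _ (by omega)]
    have : (i - 1).toNat + 1 = i.toNat := by omega
    rw [this, sub_self]
  · rw [abs_of_neg h0] at hi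
    rw [D, a, a, if_neg (by omega), if_neg (by omega)]
    have e1 : (-1 : ℤ_[2]) - x = -2 - x + 1 := by ring
    have e2 : (-1 : ℤ_[2]) - (x + 1) = -2 - x := by ring
    have e3 : (-(i - 1) - 1).toNat = (-i - 1).toNat + 1 := by omega
    rw [e1, e2, e3, h₂ _ (by omega), sub_self]

noncomputable def t (j i : ℤ) (x : ℤ_[2]) : ℝ := |D i x| + if i < j then D i x else 0

theorem t_nonneg (j i : ℤ) (x : ℤ_[2]) : 0 ≤ t j i x := by
  unfold t
  split_ifs
  · linarith [neg_abs_le (D i x)]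
  · simp

theorem t_meas (j i : ℤ) : Measurable (t j i) := by
  unfold t
  split_ifs
  · exact (D_meas i).abs.add (D_meas i)
  · exact (D_meas i).abs.add_const 0

noncomputable def c (j : ℤ) (x : ℤ_[2]) : ℝ := ∑' i, t j i x

theorem c_meas (j : ℤ) : Measurable (c j) := by
  have : c j = fun x => ((∑' i, (t j i x).toNNReal : NNReal) : ℝ) := by
    funext x
    rw [NNReal.coe_tsum]
    exact tsum_congr fun i => (Real.coe_toNNReal _ (t_nonneg j i x)).symm
  rw [this]
  exact (Measurable.nnreal_tsum fun i => (t_meas j i).real_toNNReal).coe_nnreal_real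

theorem c_succ {x : ℤ_[2]} (hx : x ≠ -1) (j : ℤ) : c (j + 1) x = c j x + D j x := by
  obtain ⟨N, hN⟩ := D_fin hx
  have hs : Summable fun i => t j i x := by
    apply summable_of_ne_finset_zero (s := Finset.Icc (-(N : ℤ)) N)
    intro i hi
    have : (N : ℤ) < |i| := by
      rw [Finset.mem_Icc, ← abs_le] at hi
      exact not_le.1 hi
    simp [t, hN i this]
  have e : ∀ i, t (j + 1) i x = t j i x + if i = j then D j x else 0 := by
    intro i
    unfold t
    by_cases h1 : i = j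
    · subst h1; simp
    · by_cases h2 : i < j
      · simp [h1, h2, show i < j + 1 by omega]
      · simp [h1, h2, show ¬ i < j + 1 by omega]
  rw [c, c, tsum_congr e, hs.tsum_add (hasSum_ite_eq j _).summable, tsum_ite_eq]

theorem ae_ne : ∀ᵐ x ∂haarTwoAdic, x ≠ -1 := by
  have h : haarTwoAdic {-1} = 0 := by
    by_contra h0
    have h1 : ∀ n : ℕ, haarTwoAdic {(n : ℤ_[2])} = haarTwoAdic {-1} := fun n => by
      rw [← (mp_add ((n : ℤ_[2]) + 1)).measure_preimage (measurableSet_singleton _).nullMeasurableSet]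
      congr 1
      ext x
      simp only [Set.mem_preimage, Set.mem_singleton_iff]
      constructor
      · intro e; linear_combination e
      · intro e; linear_combination e
    have h2 := measure_iUnion (μ := haarTwoAdic) (f := fun n : ℕ => ({(n : ℤ_[2])} : Set ℤ_[2]))
      (fun i j hij => Set.disjoint_singleton.2 (by exact_mod_cast hij))
      fun _ => measurableSet_singleton _
    simp only [h1] at h2
    rw [ENNReal.tsum_const_eq_top_of_ne_zero h0] at h2
    exact measure_ne_top _ _ h2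
  exact compl_mem_ae_iff.2 h

theorem data (hu : ∀ a : ℤ → ℝ, (∀ j : ℤ, 10 * |(j : ℝ)| ≤ a j) →
    (∀ i j : ℤ, 0 ≤ i → i ≤ j → a i ≤ a j) → (∀ i j : ℤ, j ≤ i → i < 0 → a i ≤ a j) →
    Uni fun j => Real.exp (-a j)) :
    Data (fun j x => Real.exp (-a j x)) (fun j x => Real.exp (-c j x)) where
  mβ j := (a_meas j).neg.exp
  pos _ _ := Real.exp_pos _
  win n j x _ := by
    rw [← Real.exp_sum]
    apply Real.exp_le_exp.2
    have h1 : (((n + 1) ^ 2 / 4 : ℕ) : ℝ) ≤ ∑ i ∈ Finset.range n, (m (j + i) : ℝ) := by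
      exact_mod_cast sum_m n j
    have h2 : ∑ i ∈ Finset.range n, 10 * (m (j + i) : ℝ) ≤ ∑ i ∈ Finset.range n, a (j + i) x :=
      Finset.sum_le_sum fun i _ => m_le _ x
    rw [← Finset.mul_sum] at h2
    rw [Finset.sum_neg_distrib]
    linarith
  att := ⟨0, by simp [a_zero]⟩
  mb j := (c_meas j).neg.exp
  b01 j x := ⟨(Real.exp_pos _).le, Real.exp_le_one_iff.2
    (neg_nonpos.2 (tsum_nonneg fun i => t_nonneg j i x))⟩
  bpos := Eventually.of_forall fun _ _ => Real.exp_pos _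
  coc := by
    filter_upwards [ae_ne] with x hx j
    rw [← Real.exp_add, ← Real.exp_add, c_succ hx, D]
    congr 1
    ring
  uni x := hu (fun j => a j x) (a_h1 x) (a_h2 x) (a_h3 x)

end Crest.Agent.H7.WS
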